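import Vale.Agent.P032.H343.Rcl

/-!
# P032: parity at a full centre with swap points

`Ctr.par1` : the parity lemma `Ctr.par` at a full centre with swaps, all of which have one end in a
closed set `Y` of points without pair letters at the point and at its neighbours: for arbitrarily
small neighbourhoods `N` of `Y` the palette recoloured on `N` has the parity property.
-/

open Set Filter Topology Metric

noncomputable section

namespace Vale.Agent.P032.H343

open Vale.Agent.P032.Six Vale.Agent.P032.S5.H767 Vale.Agent.P032.H695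
open Vale.Agent.P032.H180 hiding pt pt_six dist_pt continuous_pt

variable {U : Fin 6 → Set ℂ} {T : ℂ → Set (Fin 6)} {z : ℂ} {a b c d e f : Fin 6}

/-- rotation by `60 s` degrees about `z` -/
def nb (z : ℂ) (s : ℝ) (w : ℂ) : ℂ := z + (w - z) * cis (s * (Real.pi / 3))

theorem continuous_nb (z : ℂ) (s : ℝ) : Continuous (nb z s) := by
  unfold nb; fun_prop

theorem nb_pt (z : ℂ) (s t : ℝ) : nb z s (pt z t) = pt z (t + s) := by
  unfold nb pt
  rw [add_sub_cancel_left, ← cis_add]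
  congr 2; ring

theorem exists_pt343 {w : ℂ} (hw : dist w z = 1) : ∃ t, w = pt z t := by
  obtain ⟨θ, hθ⟩ := exists_cis (u := w - z) (by rw [← dist_eq_norm]; exact hw)
  refine ⟨θ / (Real.pi / 3), ?_⟩
  unfold pt
  have : θ / (Real.pi / 3) * (Real.pi / 3) = θ := by
    have := Real.pi_pos
    field_simp
  rw [this, ← hθ]; ring

/-- **Parity at a full centre with swap points.** -/
theorem Ctr.par1 (C : Ctr U T z a b c d e f) {u0 α : ℝ} (hα0 : 0 ≤ α) (hα1 : α ≤ 1)
    (hX : ∀ t ∈ Icc (0 : ℝ) α, e ∉ T (pt z (u0 + t)) ∧ f ∉ T (pt z (u0 + t)))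
    (hXonly : ∀ t ∈ Ioo α (6 : ℝ), pt z (u0 + t) ∉ closure (Ex T z {a, b}))
    (hback : ∀ t ∈ Icc (0 : ℝ) α, pt z (u0 + 3 + t) ∉ closure (Ex T z {c, d}))
    {Y : Set ℂ} (hYc : IsClosed Y) (hYz : ∀ y ∈ Y, dist y z = 1)
    (hY : ∀ y ∈ Y, ∀ y', dist y' z = 1 → (y' = y ∨ dist y y' = 1) →
      y' ∉ closure (Ex T z {a, b}) ∧ y' ∉ closure (Ex T z {c, d}))
    (hYY : ∀ y ∈ Y, ∀ y' ∈ Y, dist y y' ≠ 1)
    (hYb : ∀ t ∈ Icc (0 : ℝ) α, pt z (u0 + 3 + t) ∉ Y)
    (hsw : (∀ q, dist q z = 1 → e ∈ T q → f ∈ T q → q ∉ Y → q ∉ closure (Ex T z {a, b}) ∧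
        q ∉ closure (Ex T z {c, d})) →
      ∀ y y', dist y z = 1 → dist y' z = 1 → dist y y' = 1 → y ∉ closure (Ex T z {a, b}) →
        y' ∉ closure (Ex T z {a, b}) → Swp T z a b c d e f y y' → y ∈ Y ∨ y' ∈ Y)
    {O : Set ℂ} (hO : IsOpen O) (hYO : Y ⊆ O) {m : Fin 6} (hme : m ≠ e) (hmf : m ≠ f) :
    ∃ N, IsOpen N ∧ Y ⊆ N ∧ N ⊆ O ∧ Par (recol715 T N m) z e f := by
  have hpi := Real.pi_pos
  -- the closed sets to be avoided
  set F1 : Set ℂ := closure (Ex T z {a, b}) ∪ closure (Ex T z {c, d}) with hF1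
  have hF1c : IsClosed F1 := isClosed_closure.union isClosed_closure
  set B : Set ℂ := (fun t : ℝ => pt z (u0 + 3 + t)) '' Icc (0 : ℝ) α with hB0
  have hBc : IsClosed B :=
    (isCompact_Icc.image ((continuous_pt z).comp (continuous_const_add (u0 + 3)))).isClosed
  have hYcomp : IsCompact Y := by
    refine (isCompact_sphere z 1).of_isClosed_subset hYc fun y hy => ?_
    exact hYz y hy
  have hnbz : ∀ s : ℝ, ∀ w, dist w z = 1 → dist (nb z s w) z = 1 := by
    intro s w hw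
    obtain ⟨t, rfl⟩ := exists_pt343 hw
    rw [nb_pt]; exact dist_pt _ _
  have hnb1 : ∀ w, dist w z = 1 → dist w (nb z 1 w) = 1 := by
    intro w hw
    obtain ⟨t, rfl⟩ := exists_pt343 hw
    rw [nb_pt]; exact dist_pt_one _ _
  have hnb2 : ∀ w, dist w z = 1 → dist w (nb z (-1) w) = 1 := by
    intro w hw
    obtain ⟨t, rfl⟩ := exists_pt343 hw
    rw [nb_pt, dist_comm]
    have := dist_pt_one z (t + -1)
    rwa [neg_add_cancel_right] at this
  set W : Set ℂ := F1ᶜ ∩ (nb z 1 ⁻¹' F1ᶜ) ∩ (nb z (-1) ⁻¹' F1ᶜ) ∩ Bᶜ ∩ O with hW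
  have hWo : IsOpen W := by
    refine (((hF1c.isOpen_compl.inter ?_).inter ?_).inter hBc.isOpen_compl).inter hO
    · exact hF1c.isOpen_compl.preimage (continuous_nb z 1)
    · exact hF1c.isOpen_compl.preimage (continuous_nb z (-1))
  have hYW : Y ⊆ W := by
    intro y hy
    have hyz := hYz y hy
    refine ⟨⟨⟨⟨?_, ?_⟩, ?_⟩, ?_⟩, hYO hy⟩
    · rintro (h | h)
      · exact (hY y hy y hyz (Or.inl rfl)).1 h
      · exact (hY y hy y hyz (Or.inl rfl)).2 h
    · rintro (h | h)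
      · exact (hY y hy _ (hnbz 1 y hyz) (Or.inr (hnb1 y hyz))).1 h
      · exact (hY y hy _ (hnbz 1 y hyz) (Or.inr (hnb1 y hyz))).2 h
    · rintro (h | h)
      · exact (hY y hy _ (hnbz _ y hyz) (Or.inr (hnb2 y hyz))).1 h
      · exact (hY y hy _ (hnbz _ y hyz) (Or.inr (hnb2 y hyz))).2 h
    · rintro ⟨t, ht, rfl⟩
      exact hYb t ht hy
  -- the neighbourhood
  have hYn : Disjoint Y (nb z 1 ⁻¹' Y) := by
    rw [Set.disjoint_left]
    intro y hy hy'
    exact hYY y hy _ hy' (hnb1 y (hYz y hy))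
  obtain ⟨δ1, hδ1, hd1⟩ := hYcomp.exists_cthickening_subset_open hWo hYW
  obtain ⟨G, hG, hGY, hGn⟩ : ∃ G : Set ℂ, IsOpen G ∧ Y ⊆ G ∧
      ∀ w ∈ closure G, nb z 1 w ∉ closure G := by
    obtain ⟨δ2, hδ2, hd2⟩ := hYn.exists_cthickenings hYcomp
      (hYc.preimage (continuous_nb z 1))
    have k0 : ∀ w w', dist (nb z 1 w) (nb z 1 w') = dist w w' := by
      intro w w'
      unfold nb
      rw [dist_add_left, dist_eq_norm, ← sub_mul, norm_mul, norm_cis, mul_one, dist_eq_norm]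
      congr 1; ring
    refine ⟨thickening δ2 Y, isOpen_thickening, self_subset_thickening hδ2 _, fun w hw hw' => ?_⟩
    have k1 : w ∈ cthickening δ2 Y := closure_thickening_subset_cthickening δ2 Y hw
    have k2 : nb z 1 w ∈ cthickening δ2 Y := closure_thickening_subset_cthickening δ2 Y hw'
    refine Set.disjoint_left.1 hd2 k1 ?_
    rcases Y.eq_empty_or_nonempty with hemp | hne
    · rw [hemp, cthickening_empty] at k1
      exact absurd k1 (notMem_empty _)
    obtain ⟨v, hv, hvd⟩ := hYcomp.exists_infDist_eq_dist hne (nb z 1 w)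
    have k3 : dist (nb z 1 w) v ≤ δ2 := by
      rw [← hvd]
      rw [cthickening, mem_ofPred_eq] at k2
      exact ENNReal.toReal_le_of_le_ofReal hδ2.le k2
    -- `v = nb z 1 v'`
    have k4 : nb z 1 (nb z (-1) v) = v := by
      obtain ⟨t, rfl⟩ := exists_pt343 (hYz v hv)
      rw [nb_pt, nb_pt, neg_add_cancel_right]
    refine mem_cthickening_of_dist_le w (nb z (-1) v) δ2 _ ?_ ?_
    · show nb z 1 (nb z (-1) v) ∈ Y
      rw [k4]; exact hv
    · rw [← k0, k4]; exact k3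
  set N : Set ℂ := thickening δ1 Y ∩ G with hN
  have hNo : IsOpen N := isOpen_thickening.inter hG
  have hYN : Y ⊆ N := fun y hy => ⟨self_subset_thickening hδ1 _ hy, hGY hy⟩
  have hclN : closure N ⊆ W := by
    refine (closure_mono inter_subset_left).trans ?_
    exact (closure_thickening_subset_cthickening δ1 Y).trans hd1
  have hclG : closure N ⊆ closure G := closure_mono inter_subset_right
  refine ⟨N, hNo, hYN, fun w hw => (hclN (subset_closure hw)).2, ?_⟩
  intro T' hcl hne hT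
  by_contra hno
  have hn := C.nd
  simp only [List.nodup_cons, List.mem_cons, List.not_mem_nil, or_false, not_or, List.nodup_nil,
    and_true, not_false_eq_true] at hn
  obtain ⟨⟨ab, ac, ad, ae, af⟩, ⟨bc, bd, be, bf⟩, ⟨cd, ce, cf⟩, ⟨de, df⟩, ef⟩ := hn
  -- pair arcs carry the label `2`
  have h2 : ∀ P : Set (Fin 6), e ∉ P → f ∉ P → (closure (Ex T z P) ⊆ F1) →
      ∀ q ∈ closure (Ex T z P), 2 ∈ KK T' z e f q := by
    intro P he hf hPF q hq
    refine closure_minimal (fun y hy => ?_) (KK_closed (z := z) (e := e) (f := f) hcl 2) hq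
    have hy1 := ex_self hy
    have hyN : y ∉ closure N := fun hc => (hclN hc).1.1.1.1 (hPF (subset_closure hy))
    have hyT : T' y = P := by
      rw [hT y hy.1, ← hy1]
      ext i
      constructor
      · rintro (⟨-, h⟩ | ⟨h, -⟩)
        · exact absurd h hyN
        · exact h
      · intro h
        exact Or.inr ⟨h, fun hc => hyN (subset_closure hc)⟩
    exact KK_two.2 (exists_inn hcl hne hy.1.le (by rw [hyT]; exact he) (by rw [hyT]; exact hf))
  have h2a := h2 {a, b} (by simp [Ne.symm ae, Ne.symm be]) (by simp [Ne.symm af, Ne.symm bf])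
    subset_union_left
  have h2c := h2 {c, d} (by simp [Ne.symm ce, Ne.symm de]) (by simp [Ne.symm cf, Ne.symm df])
    subset_union_right
  have h2N : ∀ q ∈ closure (N ∩ sphere z 1), 2 ∈ KK T' z e f q := by
    intro q hq
    refine closure_minimal (fun y hy => ?_) (KK_closed (z := z) (e := e) (f := f) hcl 2) hq
    have hyz : dist y z = 1 := hy.2
    have hyT : T' y ⊆ {m} := by
      rw [hT y hyz]
      rintro i (⟨h, -⟩ | ⟨-, h⟩)
      · exact h
      · exact absurd hy.1 h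
    exact KK_two.2 (exists_inn hcl hne hyz.le (fun h => hme (hyT h).symm)
      fun h => hmf (hyT h).symm)
  have hQK : ∀ y, dist y z = 1 → y ∉ N → Q3 T z a b c d e f y ⊆ KK T' z e f y := by
    intro y hy hyN l hl
    rcases hl with ⟨rfl, h⟩ | ⟨rfl, h⟩ | ⟨rfl, h | h⟩
    · exact KK_zero.2 (by rw [hT y hy]; exact Or.inr ⟨h.2, hyN⟩)
    · exact KK_one.2 (by rw [hT y hy]; exact Or.inr ⟨h.2, hyN⟩)
    · exact h2a y h
    · exact h2c y h
  -- no triple point
  have hntr : ∀ q, dist q z = 1 → ¬ ∀ l, l ∈ Q3 T z a b c d e f q := by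
    intro q hq hall
    by_cases hqN : q ∈ N
    · exact (hclN (subset_closure hqN)).1.1.1.1 (Q3_two.1 (hall 2))
    · obtain ⟨x, hx1, hx2, hx3⟩ := KK_two.1 (hQK q hq hqN (hall 2))
      exact hno ⟨q, x, hq.le, KK_zero.1 (hQK q hq hqN (hall 0)), KK_one.1 (hQK q hq hqN (hall 1)),
        hx1, hx2, hx3⟩
  have hsw' := hsw fun q hq he hf _ => by
    constructor
    · intro h
      refine hntr q hq fun l => ?_
      have hl : l = 0 ∨ l = 1 ∨ l = 2 := by fin_cases l <;> simp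
      rcases hl with rfl | rfl | rfl
      exacts [Q3_zero.2 ⟨hq, he⟩, Q3_one.2 ⟨hq, hf⟩, Q3_two.2 (Or.inl h)]
    · intro h
      refine hntr q hq fun l => ?_
      have hl : l = 0 ∨ l = 1 ∨ l = 2 := by fin_cases l <;> simp
      rcases hl with rfl | rfl | rfl
      exacts [Q3_zero.2 ⟨hq, he⟩, Q3_one.2 ⟨hq, hf⟩, Q3_two.2 (Or.inr h)]
  have h01 : ∀ q ∈ closure N, dist q z = 1 → q ∉ N → ¬ (0 ∈ Q3 T z a b c d e f q ∧
      1 ∈ Q3 T z a b c d e f q) := by
    rintro q hq hqz hqN ⟨k0, k1⟩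
    have kW := hclN hq
    have c1 : q ∉ closure (Ex T z {a, b}) := fun h => kW.1.1.1.1 (Or.inl h)
    have c2 : nb z 1 q ∉ closure (Ex T z {a, b}) := fun h => kW.1.1.1.2 (Or.inl h)
    have c3 : nb z 1 q ∉ closure (Ex T z {c, d}) := fun h => kW.1.1.1.2 (Or.inr h)
    have hs : Swp T z a b c d e f q (nb z 1 q) := by
      by_contra hs
      have hs' : ¬ Swp T z a b c d e f (nb z 1 q) q := by
        rintro ⟨l, n, hln, j1, j2, j3, j4⟩
        exact hs ⟨l, n, hln, j3, j4, j1, j2⟩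
      refine not_sub C (hnbz 1 q hqz) hqz (by rw [dist_comm]; exact hnb1 q hqz) c2 c1 hs' ?_
      intro l hl
      have hl' : l = 0 ∨ l = 1 ∨ l = 2 := by fin_cases l <;> simp
      rcases hl' with rfl | rfl | rfl
      · exact k0
      · exact k1
      · rcases Q3_two.1 hl with h | h
        · exact absurd h c2
        · exact absurd h c3
    rcases hsw' q _ hqz (hnbz 1 q hqz) (hnb1 q hqz) c1 c2 hs with h | h
    · exact hqN (hYN h)
    · exact hGn q (hclG hq) (hclG (subset_closure (hYN h)))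
  obtain ⟨g, hg, hg6⟩ := exists_sec hcl hne hno ((u0 - 3) * (Real.pi / 3))
  have e1 : ∀ t : ℝ, z + cis ((u0 - 3) * (Real.pi / 3) + t * (Real.pi / 3)) =
      pt z (u0 - 3 + t) := by
    intro t; unfold pt; congr 2; ring
  have e2 : z + cis ((u0 - 3) * (Real.pi / 3)) = pt z (u0 - 3 + 0) := by
    rw [← e1, zero_mul, add_zero]
  simp only [e1] at hg
  rw [e2] at hg6
  have hper6 : ∀ t : ℝ, pt z (u0 - 3 + (t + 6)) = pt z (u0 - 3 + t) := by
    intro t
    have h1 : u0 - 3 + (t + 6) = u0 - 3 + t + 6 := by ring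
    rw [h1, pt_six]
  have hcont : Continuous fun t : ℝ => pt z (u0 - 3 + t) :=
    (continuous_pt z).comp (continuous_const_add (u0 - 3))
  have hcov0 : Cov fun t => Q3 T z a b c d e f (pt z (u0 - 3 + t)) := by
    refine ⟨fun t => ?_, fun t => ?_, fun t => ?_, fun t => ?_⟩
    · simp only [hper6]
    · obtain ⟨l, hl⟩ := C.cover (dist_pt z (u0 - 3 + t))
      exact ⟨mg l, Q3_mg hl⟩
    · by_contra hcon
      push Not at hcon
      exact hntr _ (dist_pt z _) hcon
    · have h1 : Tendsto (fun s : ℝ => pt z (u0 - 3 + s)) (𝓝 t) (𝓝 (pt z (u0 - 3 + t))) :=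
        hcont.tendsto t
      have h3 : ∀ l, ∀ᶠ y in 𝓝 (pt z (u0 - 3 + t)), l ∈ Q3 T z a b c d e f y →
          l ∈ Q3 T z a b c d e f (pt z (u0 - 3 + t)) := by
        intro l
        by_cases hl : l ∈ Q3 T z a b c d e f (pt z (u0 - 3 + t))
        · exact Eventually.of_forall fun _ _ => hl
        · filter_upwards [(Q3_closed C.irr l).isOpen_compl.mem_nhds hl] with y hy hy'
          exact absurd hy' hy
      filter_upwards [h1.eventually (eventually_all.2 h3)] with y hy l hl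
      exact hy l hl
  set K0 : Set ℝ := {t | pt z (u0 - 3 + t) ∈ closure (N ∩ sphere z 1)} with hK0
  set N0 : Set ℝ := {t | pt z (u0 - 3 + t) ∈ N} with hN0
  have hKN : ∀ t ∈ K0, pt z (u0 - 3 + t) ∈ closure N := fun t ht =>
    closure_mono inter_subset_left ht
  have hNK0 : N0 ⊆ K0 := fun t ht => subset_closure ⟨ht, dist_pt z _⟩
  have hcov : Cov (rcl (fun t => Q3 T z a b c d e f (pt z (u0 - 3 + t))) K0 N0) := by
    refine Cov.rcl hcov0 (isClosed_closure.preimage hcont) (hNo.preimage hcont) hNK0 (fun t => ?_)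
      (fun t => ?_) fun t ht htN => h01 _ (hKN t ht) (dist_pt z _) htN
    · show pt z (u0 - 3 + (t + 6)) ∈ closure (N ∩ sphere z 1) ↔
        pt z (u0 - 3 + t) ∈ closure (N ∩ sphere z 1)
      rw [hper6]
    · show pt z (u0 - 3 + (t + 6)) ∈ N ↔ pt z (u0 - 3 + t) ∈ N
      rw [hper6]
  have hRK : ∀ t, rcl (fun t => Q3 T z a b c d e f (pt z (u0 - 3 + t))) K0 N0 t ⊆
      KK T' z e f (pt z (u0 - 3 + t)) := by
    rintro t l (⟨rfl, h⟩ | ⟨h, h'⟩)
    · exact h2N _ h
    · exact hQK _ (dist_pt z _) h' h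
  have hnb' : ∀ t : ℝ, nb z 1 (pt z (u0 - 3 + t)) = pt z (u0 - 3 + (t + 1)) := by
    intro t; rw [nb_pt]; congr 1; ring
  have hnb'' : ∀ t : ℝ, nb z (-1) (pt z (u0 - 3 + (t + 1))) = pt z (u0 - 3 + t) := by
    intro t; rw [nb_pt]; congr 1; ring
  refine hcov.full_odd (α := α) hα0 hα1 (fun t ht => ?_) (fun t ht h => ?_) (fun t ht => ?_)
    (g := g) ⟨fun t ht i hi j hj => hg.diff t ht i (hRK _ hi) j (hRK _ hj), fun t ht => ?_⟩
    fun i hi => hg6 i (hRK _ hi)
  · have h1 := hX (t - 3) ⟨by linarith [ht.1], by linarith [ht.2]⟩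
    have h3 : u0 + (t - 3) = u0 - 3 + t := by ring
    rw [h3] at h1
    rintro l (⟨rfl, -⟩ | ⟨hl, -⟩)
    · rfl
    rcases hl with ⟨rfl, h⟩ | ⟨rfl, h⟩ | ⟨rfl, h⟩
    · exact absurd h.2 h1.1
    · exact absurd h.2 h1.2
    · rfl
  · have h3' : u0 + 3 + (t - 6) = u0 - 3 + t := by ring
    rcases h with ⟨-, h⟩ | ⟨h, -⟩
    · refine (hclN (hKN t h)).1.2 ⟨t - 6, ⟨by linarith [ht.1], by linarith [ht.2]⟩, ?_⟩
      simp only [h3']
    rcases Q3_two.1 h with h | h
    · have h3 : u0 + (t - 3) = u0 - 3 + t := by ring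
      have h4 := hXonly (t - 3) ⟨by linarith [ht.1], by linarith [ht.2]⟩
      rw [h3] at h4
      exact h4 h
    · have h4 := hback (t - 6) ⟨by linarith [ht.1], by linarith [ht.2]⟩
      rw [h3'] at h4
      exact h4 h
  · have h3 : u0 + (t - 3) = u0 - 3 + t := by ring
    have h3' : u0 + (t - 2) = u0 - 3 + (t + 1) := by ring
    have h4 := hXonly (t - 3) ⟨by linarith [ht.1], by linarith [ht.2]⟩
    have h4' := hXonly (t - 2) ⟨by linarith [ht.1], by linarith [ht.2]⟩
    rw [h3] at h4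
    rw [h3'] at h4'
    have h5 : dist (pt z (u0 - 3 + t)) (pt z (u0 - 3 + (t + 1))) = 1 := by
      have := dist_pt_one z (u0 - 3 + t)
      rwa [add_assoc] at this
    refine rcl_inc hcov0.ne hNK0 (fun hK => ?_) (fun hK => ?_) fun htN htN1 => ?_
    · have kW := hclN (hKN t hK)
      have k1 : pt z (u0 - 3 + (t + 1)) ∉ F1 := by
        rw [← hnb']; exact kW.1.1.1.2
      refine ⟨fun h => k1 (Q3_two.1 h), fun h => ?_⟩
      refine hGn _ (hclG (hKN t hK)) ?_
      rw [hnb']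
      exact hclG (hKN _ h)
    · have kW := hclN (hKN _ hK)
      have k1 : pt z (u0 - 3 + t) ∉ F1 := by
        rw [← hnb'']; exact kW.1.1.2
      refine ⟨fun h => k1 (Q3_two.1 h), fun h => ?_⟩
      refine hGn _ (hclG (hKN t h)) ?_
      rw [hnb']
      exact hclG (hKN _ hK)
    · have h6 : ¬ Swp T z a b c d e f (pt z (u0 - 3 + t)) (pt z (u0 - 3 + (t + 1))) := by
        intro hs
        rcases hsw' _ _ (dist_pt z _) (dist_pt z _) h5 h4 h4' hs with h | h
        · exact htN (hYN h)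
        · exact htN1 (hYN h)
      have h6' : ¬ Swp T z a b c d e f (pt z (u0 - 3 + (t + 1))) (pt z (u0 - 3 + t)) := by
        rintro ⟨l, n, hln, k1, k2, k3, k4⟩
        exact h6 ⟨l, n, hln, k3, k4, k1, k2⟩
      exact ⟨not_sub C (dist_pt z _) (dist_pt z _) h5 h4 h4' h6,
        not_sub C (dist_pt z _) (dist_pt z _) (by rw [dist_comm]; exact h5) h4' h4 h6'⟩
  · filter_upwards [hg.loc t ht] with s hs i hi
    exact hs i (hRK _ hi)

end Vale.Agent.P032.H343
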