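import Vale.Agent.P032.H695.Par
import Vale.Agent.P032.H715.Remov

/-!
# P032: parity at a full centre with swap points (recolouring)

`Cov.rcl` : a closed cover of the circle by three labels stays one after recolouring with the label
`2` near a closed set; `rcl_inc` : incomparable labels at distance one stay incomparable.

`Ctr.par1` : the parity lemma `Ctr.par` at a full centre with swaps, all of which have one end in a
closed set `Y` of points without pair letters at the point and at its neighbours: for arbitrarily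
small neighbourhoods `N` of `Y` the palette recoloured on `N` has the parity property.
-/

open Set Filter Topology Metric

noncomputable section

namespace Vale.Agent.P032.H343

open Vale.Agent.P032.Six Vale.Agent.P032.S5.H767 Vale.Agent.P032.H695
open Vale.Agent.P032.H180 hiding pt pt_six dist_pt continuous_pt

/-- recolouring with the label `2`: on the closed set `K`; no other label on `N` -/
def rcl (Q : ℝ → Set (Fin 3)) (K N : Set ℝ) (t : ℝ) : Set (Fin 3) :=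
  {l | (l = 2 ∧ t ∈ K) ∨ (l ∈ Q t ∧ t ∉ N)}

theorem Cov.rcl {Q : ℝ → Set (Fin 3)} (h : Cov Q) {K N : Set ℝ} (hK : IsClosed K) (hN : IsOpen N)
    (hNK : N ⊆ K) (pK : ∀ t, t + 6 ∈ K ↔ t ∈ K) (pN : ∀ t, t + 6 ∈ N ↔ t ∈ N)
    (hfr : ∀ t ∈ K, t ∉ N → ¬ (0 ∈ Q t ∧ 1 ∈ Q t)) : Cov (rcl Q K N) := by
  refine ⟨fun t => ?_, fun t => ?_, fun t => ?_, fun t => ?_⟩
  · ext l
    simp only [H343.rcl, mem_ofPred_eq, pK, pN, h.per]
  · by_cases ht : t ∈ N
    · exact ⟨2, Or.inl ⟨rfl, hNK ht⟩⟩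
    · obtain ⟨l, hl⟩ := h.ne t
      exact ⟨l, Or.inr ⟨hl, ht⟩⟩
  · by_cases ht : t ∈ N
    · refine ⟨0, ?_⟩
      rintro (⟨h1, -⟩ | ⟨-, h1⟩)
      · exact absurd h1 (by decide)
      · exact h1 ht
    · by_cases htK : t ∈ K
      · have h1 := hfr t htK ht
        by_cases h0 : 0 ∈ Q t
        · refine ⟨1, ?_⟩
          rintro (⟨h2, -⟩ | ⟨h2, -⟩)
          · exact absurd h2 (by decide)
          · exact h1 ⟨h0, h2⟩
        · refine ⟨0, ?_⟩
          rintro (⟨h2, -⟩ | ⟨h2, -⟩)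
          · exact absurd h2 (by decide)
          · exact h0 h2
      · obtain ⟨l, hl⟩ := h.nu t
        refine ⟨l, ?_⟩
        rintro (⟨-, h2⟩ | ⟨h2, -⟩)
        · exact htK h2
        · exact hl h2
  · have e1 : ∀ᶠ s in 𝓝 t, s ∈ K → t ∈ K := by
      by_cases htK : t ∈ K
      · exact Eventually.of_forall fun _ _ => htK
      · filter_upwards [hK.isOpen_compl.mem_nhds htK] with s hs hs'
        exact absurd hs' hs
    have e2 : ∀ᶠ s in 𝓝 t, t ∈ N → s ∈ N := by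
      by_cases htN : t ∈ N
      · filter_upwards [hN.mem_nhds htN] with s hs _
        exact hs
      · exact Eventually.of_forall fun _ h1 => absurd h1 htN
    filter_upwards [e1, e2, h.usc t] with s h1 h2 h3 l hl
    rcases hl with ⟨hl, hl'⟩ | ⟨hl, hl'⟩
    · exact Or.inl ⟨hl, h1 hl'⟩
    · exact Or.inr ⟨h3 hl, fun h4 => hl' (h2 h4)⟩

theorem rcl_inc {Q : ℝ → Set (Fin 3)} (hne : ∀ t, (Q t).Nonempty) {K N : Set ℝ} (hNK : N ⊆ K)
    {t : ℝ}
    (h1 : t ∈ K → 2 ∉ Q (t + 1) ∧ t + 1 ∉ K) (h2 : t + 1 ∈ K → 2 ∉ Q t ∧ t ∉ K)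
    (hinc : t ∉ N → t + 1 ∉ N → ¬ Q t ⊆ Q (t + 1) ∧ ¬ Q (t + 1) ⊆ Q t) :
    ¬ rcl Q K N t ⊆ rcl Q K N (t + 1) ∧ ¬ rcl Q K N (t + 1) ⊆ rcl Q K N t := by
  by_cases ht : t ∈ K
  · obtain ⟨k1, k2⟩ := h1 ht
    have k3 : t + 1 ∉ N := fun h => k2 (hNK h)
    constructor
    · intro hs
      rcases hs (Or.inl ⟨rfl, ht⟩ : (2 : Fin 3) ∈ rcl Q K N t) with ⟨-, h3⟩ | ⟨h3, -⟩
      · exact k2 h3
      · exact k1 h3
    · intro hs
      by_cases htN : t ∈ N
      · obtain ⟨l, hl⟩ := hne (t + 1)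
        rcases hs (Or.inr ⟨hl, k3⟩ : l ∈ rcl Q K N (t + 1)) with ⟨h3, -⟩ | ⟨-, h3⟩
        · exact k1 (h3 ▸ hl)
        · exact h3 htN
      · obtain ⟨l, hl, hl'⟩ := Set.not_subset.1 (hinc htN k3).2
        rcases hs (Or.inr ⟨hl, k3⟩ : l ∈ rcl Q K N (t + 1)) with ⟨h3, -⟩ | ⟨h3, -⟩
        · exact k1 (h3 ▸ hl)
        · exact hl' h3
  · have htN : t ∉ N := fun h => ht (hNK h)
    by_cases ht1 : t + 1 ∈ K
    · obtain ⟨k1, -⟩ := h2 ht1
      constructor
      · intro hs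
        by_cases htN1 : t + 1 ∈ N
        · obtain ⟨l, hl⟩ := hne t
          rcases hs (Or.inr ⟨hl, htN⟩ : l ∈ rcl Q K N t) with ⟨h3, -⟩ | ⟨-, h3⟩
          · exact k1 (h3 ▸ hl)
          · exact h3 htN1
        · obtain ⟨l, hl, hl'⟩ := Set.not_subset.1 (hinc htN htN1).1
          rcases hs (Or.inr ⟨hl, htN⟩ : l ∈ rcl Q K N t) with ⟨h3, -⟩ | ⟨h3, -⟩
          · exact k1 (h3 ▸ hl)
          · exact hl' h3
      · intro hs
        rcases hs (Or.inl ⟨rfl, ht1⟩ : (2 : Fin 3) ∈ rcl Q K N (t + 1)) with ⟨-, h3⟩ | ⟨h3, -⟩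
        · exact ht h3
        · exact k1 h3
    · have ht1N : t + 1 ∉ N := fun h => ht1 (hNK h)
      obtain ⟨k1, k2⟩ := hinc htN ht1N
      constructor
      · intro hs
        refine k1 fun l hl => ?_
        rcases hs (Or.inr ⟨hl, htN⟩ : l ∈ rcl Q K N t) with ⟨-, h3⟩ | ⟨h3, -⟩
        · exact absurd h3 ht1
        · exact h3
      · intro hs
        refine k2 fun l hl => ?_
        rcases hs (Or.inr ⟨hl, ht1N⟩ : l ∈ rcl Q K N (t + 1)) with ⟨-, h3⟩ | ⟨h3, -⟩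
        · exact absurd h3 ht
        · exact h3

end Vale.Agent.P032.H343
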